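import Vale.Agent.P224.R2.H797.Unit
import Vale.Agent.P224.R2.H458.T30.Rows
import Vale.Agent.P224.R2.H458.T30.El
import Vale.Agent.P224.R2.H458.T30.DF0
import Vale.Agent.P224.R2.H458.T30.DF1

/-!
Certificate in dimension 30: the identity and the pointwise inequality.
-/

namespace Vale.Agent.P224.R2.H458.T30

open Vale.Agent.P224.UE Vale.Agent.P224.POS Vale.Agent.P224.PO Vale.Agent.P224.R2.H797
open scoped RealInnerProductSpace

noncomputable section

/-- the blocks with the multiplier `1` -/
def B1 : List BlkX := [⟨els0, 75557863725914323419136, N0⟩,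
  ⟨els1, 37778931862957161709568, N1⟩,
  ⟨els2, 37778931862957161709568, N2⟩,
  ⟨els3, 18889465931478580854784, N3⟩]

/-- the blocks with the multiplier `rr` -/
def Br : List BlkX := []

/-- the integers replacing the first four variables (not powers of two: the kernel hashes a numeral
by its last 64 bits) -/
def Ms : List Nat := [
  Nat.add (Nat.pow 2 100) 2165547176693115587,
  Nat.add (Nat.pow 2 3488) 3523221472221211621,
  Nat.add (Nat.pow 2 18324) 649580102598851915,
  Nat.add (Nat.pow 2 92504) 199539407505701553]

set_option maxRecDepth 100000 in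
/-- **The identity**, checked by the kernel. -/
theorem idM : chkX Ms (PE.sb sbU P) 8 tabU (mulU B1 Br) = true := by
  decide +kernel

lemma hB1 : GoodX B1 :=
  (goodX_cons psd0 (goodX_cons psd1 (goodX_cons psd2 (goodX_cons psd3 goodX_nil))))

lemma hBr : GoodX Br :=
  goodX_nil

/-- **The pointwise inequality of the certificate.** -/
theorem hpos {E : Type*} [NormedAddCommGroup E] [InnerProductSpace ℝ E] (v x N y w : E)
    (hv : ‖v‖ = 1) (hx : ‖x‖ = 1) (hN : ‖N‖ = 1) (hy : ‖y‖ = 1) (hw : ‖w‖ = 1)
    (hxN : ⟪x, N⟫ = 0) (hyw : ⟪y, w⟫ = 0) (hs : ⟪x, y⟫ < 1) :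
    0 ≤ Vale.Agent.P224.UE.W9 (12998378429682839480 / 18446744073709551616) (6349057692326053272 / 18446744073709551616) (-3733578883529271424 / 18446744073709551616) (0 / 18446744073709551616) (338247588274498304 / 18446744073709551616) (151958382863205048 / 18446744073709551616) (0 / 18446744073709551616) (0 / 18446744073709551616) (0 / 18446744073709551616) (dv x N y w v)
      + hsum 30 (rlH 18446744073709551616 rows) (dv x N y w v) :=
  pos_of hs (nonneg_of_chkU 8 (by norm_num) idM rfl hB1 hBr hv hx hN hy hw hxN hyw hs)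

end

end Vale.Agent.P224.R2.H458.T30
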